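import Vale.Agent.P088.R2.H710.LX.InM
import Vale.Agent.P088.R2.H509.S3.Sc

/-!
# P088, stage 3: interior models with real frames are real models of rank one
-/

open Bundle Manifold MeasureTheory Set Filter Topology
open scoped ContDiff

noncomputable section

set_option linter.all false

namespace Vale.Agent.P088.R2.H710

open Vale.Agent.P088 Vale.Agent.P088.EYM Vale.Agent.P088.R2.H509.S3
open Vale.Agent.P088.EYM.Q (IsMod)

universe u

section

variable {n : ℕ} [NeZero n]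

theorem endF1_ext {A B : EndF 1} (h : A (EuclideanSpace.single (0 : Fin 1) (1 : ℂ)) =
    B (EuclideanSpace.single (0 : Fin 1) (1 : ℂ))) : A = B := by
  refine endF_ext fun j => ?_
  have : j = 0 := Subsingleton.elim _ _
  subst this
  exact h

theorem adj_rsmul (c : ℝ) : ContinuousLinearMap.adjoint (c • (1 : EndF 1)) = c • (1 : EndF 1) := by
  have h : (c • (1 : EndF 1)) = ((c : ℂ) • (1 : EndF 1)) := by
    ext v i
    simp
  rw [h, map_smulₛₗ]
  have h1 : ContinuousLinearMap.adjoint (1 : EndF 1) = 1 := ContinuousLinearMap.adjoint_id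
  rw [h1, Complex.conj_ofReal]

theorem rinv_rsmul {c : ℝ} (hc : c ≠ 0) : Ring.inverse (c • (1 : EndF 1)) = c⁻¹ • (1 : EndF 1) := by
  have h1 : (c • (1 : EndF 1)) * (c⁻¹ • (1 : EndF 1)) = 1 := by
    rw [smul_mul_smul_comm, mul_one, mul_inv_cancel₀ hc, one_smul]
  have h2 : (c⁻¹ • (1 : EndF 1)) * (c • (1 : EndF 1)) = 1 := by
    rw [smul_mul_smul_comm, mul_one, inv_mul_cancel₀ hc, one_smul]
  have hu : IsUnit (c • (1 : EndF 1)) := ⟨⟨_, _, h1, h2⟩, rfl⟩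
  calc Ring.inverse (c • (1 : EndF 1)) = Ring.inverse (c • (1 : EndF 1)) *
        ((c • (1 : EndF 1)) * (c⁻¹ • (1 : EndF 1))) := by rw [h1, mul_one]
    _ = _ := by rw [← mul_assoc, Ring.inverse_mul_cancel _ hu, one_mul]

theorem pd_rsmul_one {D : Set (E n)} (hD : RelOpen D) {f : E n → ℝ} (hf : ContDiffOn ℝ ∞ f D)
    {x : E n} (hx : x ∈ D) (j : Fin n) :
    pd j (fun y => f y • (1 : EndF 1)) x = pd j f x • (1 : EndF 1) := by
  let L : ℝ →L[ℝ] EndF 1 := ContinuousLinearMap.smulRight (1 : ℝ →L[ℝ] ℝ) (1 : EndF 1)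
  have h1 : pd j (fun y => L (f y)) x = L (pd j f x) := hD.pd_clm L hf hx j
  exact h1

/-- The real model of rank one given by a real frame. -/
theorem rm_of_pull {L : LD n 1} {W : Model n 1} {D : Set (E n)} {z : E n} {r : ℝ}
    {X Y : E n → E n} {S : E n → EndF 1} (hD : RelOpen D)
    (hp : IsPull L W.toLD D (HB z r) X Y S) (hmod : IsMod 0 W (HB z r))
    (hB : ∀ x ∈ D, ∀ j, L.B j x = 0) (hh : ∀ x ∈ D, L.h x = 1) {σ : E n → ℝ}
    (hσs : ContDiffOn ℝ ∞ σ D) (hσ : ∀ x ∈ D, S x = σ x • (1 : EndF 1))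
    (hc : ∀ x ∈ D, ∀ a, cj 1 (S x (W.c a (X x))) = S x (W.c a (X x))) :
    RM W (fun y => √(σ (Y y) ^ 2)) (HB z r) := by
  have hHB : RelOpen (HB z r) := ⟨Metric.ball z r, Metric.isOpen_ball, rfl⟩
  have hσ0 : ∀ x ∈ D, σ x ≠ 0 := by
    intro x hx h0
    have h1 := hp.unit x hx
    rw [hσ x hx, h0, zero_smul] at h1
    exact not_isUnit_zero h1
  have hYD : MapsTo Y (HB z r) D := hp.diffeo.mapsY
  have hτs : ContDiffOn ℝ ∞ (fun y => σ (Y y)) (HB z r) := hσs.comp hp.diffeo.smY hYD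
  have hpos : ∀ y ∈ HB z r, 0 < σ (Y y) ^ 2 := fun y hy => by
    have := hσ0 _ (hYD hy)
    positivity
  have hρs : ContDiffOn ℝ ∞ (fun y => √(σ (Y y) ^ 2)) (HB z r) :=
    (hτs.pow 2).sqrt fun y hy => (hpos y hy).ne'
  have hρsq : ∀ y, √(σ (Y y) ^ 2) ^ 2 = σ (Y y) ^ 2 := fun y => Real.sq_sqrt (sq_nonneg _)
  -- the logarithmic derivative
  have hlog : ∀ y ∈ HB z r, ∀ j, pd j (fun y => √(σ (Y y) ^ 2)) y / √(σ (Y y) ^ 2) =
      pd j (fun y => σ (Y y)) y / σ (Y y) := by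
    intro y hy j
    have e1 : pd j (fun y => √(σ (Y y) ^ 2) * √(σ (Y y) ^ 2)) y =
        pd j (fun y => σ (Y y) * σ (Y y)) y := by
      refine hHB.pd_congr (fun y hy => ?_) hy j
      show √(σ (Y y) ^ 2) * √(σ (Y y) ^ 2) = σ (Y y) * σ (Y y)
      rw [← sq, hρsq, sq]
    rw [pdm hHB hρs hρs hy j, pdm hHB hτs hτs hy j] at e1
    have h1 : 0 < √(σ (Y y) ^ 2) := Real.sqrt_pos.2 (hpos y hy)
    have h2 := hσ0 _ (hYD hy)
    have h3 := hρsq y
    rw [div_eq_div_iff h1.ne' h2]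
    have e2 : pd j (fun y => √(σ (Y y) ^ 2)) y * √(σ (Y y) ^ 2) =
        pd j (fun y => σ (Y y)) y * σ (Y y) := by linarith
    have e3 : √(σ (Y y) ^ 2) * (pd j (fun y => √(σ (Y y) ^ 2)) y * σ (Y y) -
        pd j (fun y => σ (Y y)) y * √(σ (Y y) ^ 2)) = 0 := by
      have : √(σ (Y y) ^ 2) * (pd j (fun y => √(σ (Y y) ^ 2)) y * σ (Y y) -
        pd j (fun y => σ (Y y)) y * √(σ (Y y) ^ 2)) =
        (pd j (fun y => √(σ (Y y) ^ 2)) y * √(σ (Y y) ^ 2)) * σ (Y y) -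
          pd j (fun y => σ (Y y)) y * √(σ (Y y) ^ 2) ^ 2 := by ring
      rw [this, e2, h3]
      ring
    rcases mul_eq_zero.1 e3 with h | h
    · exact absurd h h1.ne'
    · linarith
  have hsymm := bSymm n 1 L W.toLD D (HB z r) X Y S hD hHB hp
  have hSY : ∀ y ∈ HB z r, Ring.inverse (S (Y y)) = (σ (Y y))⁻¹ • (1 : EndF 1) := fun y hy => by
    rw [hσ _ (hYD hy), rinv_rsmul (hσ0 _ (hYD hy))]
  have hτi : ContDiffOn ℝ ∞ (fun y => (σ (Y y))⁻¹) (HB z r) :=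
    hτs.inv fun y hy => hσ0 _ (hYD hy)
  refine ⟨hHB, hmod, hρs, fun y hy => Real.sqrt_pos.2 (hpos y hy), fun y hy => ?_,
    fun y hy j => ?_, fun a y hy => ?_⟩
  · have h1 := hp.h_eq (Y y) (hYD hy)
    rw [hp.diffeo.inv2 y hy, hh _ (hYD hy), mul_one, hσ _ (hYD hy), adj_rsmul,
      smul_mul_smul_comm, mul_one] at h1
    rw [← h1, hρsq, sq]
  · have h1 := hsymm.B_eq y hy j
    have h2 : ∑ k, Jac Y y k j • L.B k (Y y) = 0 :=
      Finset.sum_eq_zero fun k _ => by rw [hB _ (hYD hy) k, smul_zero]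
    rw [h2, mul_zero, hSY y hy, hHB.pd_congr (fun y hy => hSY y hy) hy j,
      pd_rsmul_one hHB hτi hy j] at h1
    have h3 : pd j (fun y => (σ (Y y))⁻¹) y * σ (Y y) + (σ (Y y))⁻¹ * pd j (fun y => σ (Y y)) y =
        0 := by
      have e1 : EqOn (fun y => (σ (Y y))⁻¹ * σ (Y y)) (fun _ => (1 : ℝ)) (HB z r) := fun y hy =>
        inv_mul_cancel₀ (hσ0 _ (hYD hy))
      have e2 := hHB.pd_congr e1 hy j
      rw [pd_const, pdm hHB hτi hτs hy j] at e2
      exact e2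
    have h0 := hσ0 _ (hYD hy)
    have e1 : W.B j y * ((σ (Y y))⁻¹ • (1 : EndF 1)) = -(pd j (fun y => (σ (Y y))⁻¹) y • (1 : EndF 1)) :=
      eq_neg_of_add_eq_zero_right h1
    have e2 : (σ (Y y)) • (W.B j y * ((σ (Y y))⁻¹ • (1 : EndF 1))) =
        (σ (Y y)) • (-(pd j (fun y => (σ (Y y))⁻¹) y • (1 : EndF 1))) := by rw [e1]
    rw [mul_smul_comm, smul_smul, mul_inv_cancel₀ h0, one_smul, smul_neg, smul_smul, mul_one] at e2
    rw [e2, hlog y hy j]
    have h5 : -(σ (Y y) * pd j (fun y => (σ (Y y))⁻¹) y) = pd j (fun y => σ (Y y)) y / σ (Y y) := by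
      rw [div_eq_mul_inv]
      linarith
    rw [← h5]
    exact (neg_smul _ _).symm
  · have h1 := hc (Y y) (hYD hy) a
    rw [hp.diffeo.inv2 y hy, hσ _ (hYD hy)] at h1
    have h0 := hσ0 _ (hYD hy)
    have e1 : ∀ v : Fib 1, (σ (Y y) • (1 : EndF 1)) v = σ (Y y) • v := fun v => rfl
    rw [e1, map_smul] at h1
    have h2 : cj 1 (W.c a y) = W.c a y := by
      have := congrArg (fun v : Fib 1 => (σ (Y y))⁻¹ • v) h1
      simpa only [smul_smul, inv_mul_cancel₀ h0, one_smul] using this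
    rw [io_eq h2, hmod.re a y hy]

end

section

variable {n : ℕ} [NeZero n] {M : Type u} [TopologicalSpace M]
  [ChartedSpace (EuclideanHalfSpace n) M] [IsManifold (𝓡∂ n) ∞ M] [MeasurableSpace M]

/-- the value of the frame -/
def fv (q : M) (s : Fin 1 → M → Fib 1) (y : E n) : ℝ := ((lu (𝓡∂ n) q (s 0) y) 0).re

theorem frm_real {q : M} {s : Fin 1 → M → Fib 1} (h : ∀ j x, cj 1 ((s j) x) = (s j) x) (y : E n) :
    frm n q s y = fv q s y • (1 : EndF 1) := by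
  refine endF1_ext ?_
  have h1 : frm n q s y (eN 1 0) = s 0 ((xc n q).symm y) := cCoord_frm_eN q s y 0
  have h2 : s 0 ((xc n q).symm y) = io (fv q s y) := io_eq (h 0 _)
  have h3 : (fv q s y • (1 : EndF 1)) (EuclideanSpace.single (0 : Fin 1) (1 : ℂ)) =
      fv q s y • EuclideanSpace.single (0 : Fin 1) (1 : ℂ) := rfl
  rw [h3]
  refine (h1.trans h2).trans ?_
  ext i
  rw [io_apply]
  fin_cases i
  simp

theorem InM.rm {P : One n 1 M} {q : M} {z : E n} {r : ℝ} {W : Model n 1} {D : Set (E n)}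
    {Y : E n → E n} {s : Fin 1 → M → Fib 1} {t : Fin n → M → Fib 1} (hA : A0 P.A)
    (h : InM P q z r 0 W D Y s t) (hs : ∀ j, SmS n (s j)) (hsr : ∀ j x, cj 1 ((s j) x) = (s j) x)
    (htr : ∀ a x, cj 1 ((t a) x) = (t a) x) :
    RM W (fun y => √(fv q s (Y y) ^ 2)) (HB z r) := by
  refine rm_of_pull (n := n) h.rel h.pull h.mod (fun x hx j => hA _ _) (fun x hx => rfl) ?_
    (fun x _ => frm_real hsr x) (fun x hx a => ?_)
  · obtain ⟨-, -, -, hsm⟩ := TM.fLoc n 1 M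
    have h1 : ContDiffOn ℝ ∞ (lu (𝓡∂ n) q (s 0)) D := (hsm (s 0) (hs 0) q).mono h.sub
    have h2 : ContDiffOn ℝ ∞ (fun y => (cCoord_re (0 : Fin 1)) (lu (𝓡∂ n) q (s 0) y)) D :=
      (cCoord_re (0 : Fin 1)).contDiff.comp_contDiffOn h1
    exact h2
  · rw [← h.c x hx a]
    exact htr a _

end

end Vale.Agent.P088.R2.H710
end
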