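import Vale.Agent.P088.R2.H710.LX.InM
import Vale.Agent.P088.R2.H850.J3
import Vale.Agent.P088.R2.H935.S.Conv

/-!
# P088, stage 3, interior step: statements
-/

open Bundle Manifold MeasureTheory Set Filter Topology
open scoped ContDiff

noncomputable section

set_option linter.all false

namespace Vale.Agent.P088.R2.H710

open Vale.Agent.P088 Vale.Agent.P088.EYM Vale.Agent.P088.R2.H509.S3
open Vale.Agent.P088.EYM.Q (IsMod)
open Vale.Agent.P088.R2.H850 (sgE)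
open Vale.Agent.P088.R2.H935.Cv (StpE Core3E)

universe u

/-- The transfer at a limit point of a match (interior Step3). -/
def RowST3I : Prop :=
  ∀ (n : ℕ) [NeZero n] (M₁ M₂ : Type u)
    [TopologicalSpace M₁] [ChartedSpace (EuclideanHalfSpace n) M₁]
    [IsManifold (𝓡∂ n) ∞ M₁] [T2Space M₁] [CompactSpace M₁] [ConnectedSpace M₁] [MeasurableSpace M₁]
    [BorelSpace M₁] [TopologicalSpace M₂] [ChartedSpace (EuclideanHalfSpace n) M₂]
    [IsManifold (𝓡∂ n) ∞ M₂] [T2Space M₂] [CompactSpace M₂] [ConnectedSpace M₂] [MeasurableSpace M₂]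
    [BorelSpace M₂] (P : One n 1 M₁) (Q : One n 1 M₂) (G : TM.Gl M₁ M₂), 3 ≤ n →
    A0 P.A → A0 Q.A → G.Ok n 1 → TM.SameD P Q G →
    ∀ (V : Set M₂) (F : M₂ → M₁) (H : M₂ → EndF 1), IsOpen V → IsPreconnected V →
    (V ∩ G.Γ₂).Nonempty → TM.WMatch P Q G V F H →
    ∀ (x : M₂) (x' : M₁) (s : Fin 1 → (M₁ → Fib 1) × (M₂ → Fib 1))
      (t : Fin n → (M₁ → Fib 1) × (M₂ → Fib 1)) (z : E n) (r : ℝ) (W₁ W₂ : Model n 1)
      (D₁ D₂ : Set (E n)) (Y₁ Y₂ : E n → E n),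
      LimM P Q G V F x x' 0 s t z r W₁ W₂ D₁ D₂ Y₁ Y₂ →
      ∀ (y₀ : E n) (R : ℝ), 0 < R → Metric.closedBall y₀ R ⊆ Metric.ball z r →
        StpE (Metric.ball y₀ R) {y ∈ Metric.ball z r | (xc n x).symm (Y₂ y) ∈ V}
          (sgE W₂.toLD) (sgE W₁.toLD)

/-- The interior step, for real scalars. -/
def RowLX : Prop :=
  ∀ (n : ℕ) [NeZero n] (M₁ M₂ : Type u)
    [TopologicalSpace M₁] [ChartedSpace (EuclideanHalfSpace n) M₁]
    [IsManifold (𝓡∂ n) ∞ M₁] [T2Space M₁] [CompactSpace M₁] [ConnectedSpace M₁] [MeasurableSpace M₁]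
    [BorelSpace M₁] [TopologicalSpace M₂] [ChartedSpace (EuclideanHalfSpace n) M₂]
    [IsManifold (𝓡∂ n) ∞ M₂] [T2Space M₂] [CompactSpace M₂] [ConnectedSpace M₂] [MeasurableSpace M₂]
    [BorelSpace M₂] (P : One n 1 M₁) (Q : One n 1 M₂) (G : TM.Gl M₁ M₂), 3 ≤ n →
    A0 P.A → A0 Q.A → G.Ok n 1 → TM.SameD P Q G → StepI P Q G

end Vale.Agent.P088.R2.H710
end
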