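import Vale.Agent.P088.R2.H710.LX.Ext
import Vale.Agent.P088.R2.H710.LX.Rm
import Vale.Agent.P088.R2.H710.LX.St
import Vale.Agent.P088.R2.H710.Glob
import Vale.Agent.P088.R2.H850.K1

/-!
# P088, stage 3: the interior step
-/

open Bundle Manifold MeasureTheory Set Filter Topology
open scoped ContDiff

noncomputable section

set_option linter.all false

namespace Vale.Agent.P088.R2.H710

open Vale.Agent.P088 Vale.Agent.P088.EYM Vale.Agent.P088.R2.H509.S3
open Vale.Agent.P088.EYM.Q (IsMod)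
open Vale.Agent.P088.R2.H850 (sgE sgE_smooth sgE_eq rm_eq_intE)
open Vale.Agent.P088.R2.H935.Cv (StpE Core3E pe)

universe u

section

variable {n : ℕ} [NeZero n]

theorem pd_eq_pe {f : E n → ℝ} {x : E n} (hx : 0 < x 0) (i : Fin n) : pd i f x = pe i f x := by
  have h1 : Hs n ∈ 𝓝 x := by
    have h2 : IsOpen {y : E n | 0 < y 0} := isOpen_lt continuous_const (continuous_coord 0)
    exact Filter.mem_of_superset (h2.mem_nhds hx) fun y hy => le_of_lt (show 0 < y 0 from hy)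
  unfold pd pe
  rw [fderivWithin_of_mem_nhds h1]

theorem sgE_pos {W : Model n 1} {ρ : E n → ℝ} {D : Set (E n)} (h : RM W ρ D) {x : E n}
    (hx : x ∈ D) : (sgE W.toLD x).PosDef := by
  have hg := h.mod.ok.g_pos x hx
  have h1 : 0 < (trE (W.h x)).re * √(W.g x).det := by
    rw [h.h x hx, Vale.Agent.P088.R2.H850.trE_one_smul]
    have := h.pos x hx
    have := Real.sqrt_pos.2 hg.det_pos
    positivity
  exact hg.inv.smul h1

end

/-- **The interior step**, from the local theorem and the transfer. -/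
theorem rowLX (hC : Core3E) (hT : RowST3I.{u}) : RowLX.{u} := by
  intro n _ M₁ M₂ _ _ _ _ _ _ _ _ _ _ _ _ _ _ _ _ P Q G hn hA hA' hG hS
  intro V F H hV hVc hVΓ hm x hx hcl hxV
  obtain ⟨x', j0, s, t, z, r, W₁, W₂, D₁, D₂, Y₁, Y₂, hL⟩ :=
    limM P Q G hA hA' hn one_pos hG hS hV hm hx hcl
  have hj : j0 = 0 := Subsingleton.elim _ _
  subst hj
  obtain ⟨hHB, hpos⟩ := hL.hb
  have hr := hL.r0
  -- the touching ball
  obtain ⟨c₀, y₀, hy₀, hy₀U, hc0, hcr, hcU⟩ := touching (hL.mp_open hV) (ρ := r / 4)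
    (by positivity) (fun h => hxV (by have := h.2; rwa [show (xc n x).symm (Y₂ z) = x from hL.thz]
      at this)) (hL.mp_closure hcl)
  have hcb : Metric.closedBall y₀ (r / 4) ⊆ Metric.ball z r := by
    intro y hy
    rw [Metric.mem_closedBall] at hy
    rw [Metric.mem_ball] at hy₀ ⊢
    calc dist y z ≤ dist y y₀ + dist y₀ z := dist_triangle _ _ _
      _ < r := by linarith
  have hbb : Metric.ball y₀ (r / 4) ⊆ Metric.ball z r := Metric.ball_subset_closedBall.trans hcb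
  have hbH : Metric.ball y₀ (r / 4) ⊆ HB z r := by rw [hHB]; exact hbb
  -- the real models
  have hsm₁ : ∀ j, SmS n (s j).1 := fun j => by
    obtain ⟨f, f', -, h, -⟩ := hL.ms j
    exact h.smooth
  have hsm₂ : ∀ j, SmS n (s j).2 := fun j => by
    obtain ⟨f, f', -, -, h⟩ := hL.ms j
    exact h.smooth
  have hR₁ := hL.i₁.rm hA hsm₁ hL.rs₁ hL.rt₁
  have hR₂ := hL.i₂.rm hA' hsm₂ hL.rs₂ hL.rt₂
  have hdiv : ∀ {W : Model n 1} {ρ : E n → ℝ}, RM W ρ (HB z r) →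
      ∀ y ∈ Metric.ball y₀ (r / 4), ∀ j, ∑ i, pe i (fun y => sgE W.toLD y i j) y = 0 := by
    intro W ρ hR y hy j
    have h1 := hR.div_zero j (hbH hy)
    rw [← h1]
    refine Finset.sum_congr rfl fun i _ => ?_
    rw [← pd_eq_pe (hpos (hbb hy))]
    exact hR.rel.pd_congr (fun y hy => sgE_eq hR hy i j) (hbH hy) i
  have hmpeq : ∀ y ∈ mp V x Y₂ z r, sgE W₁.toLD y = sgE W₂.toLD y := by
    intro y hy
    unfold sgE
    rw [hL.eq.g y hy, hL.eq.h y hy]
  obtain ⟨δ, hδ, hδe⟩ := hC n hn (sgE W₂.toLD) (sgE W₁.toLD) y₀ c₀ (r / 4) (dist c₀ y₀)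
    (mp V x Y₂ z r) (by positivity) hc0 rfl (hL.mp_open hV)
    (fun y hy => hcU hy.1)
    (fun i j => (sgE_smooth hR₂.mod.ok i j).mono hbH)
    (fun i j => (sgE_smooth hR₁.mod.ok i j).mono hbH)
    (fun y hy => sgE_pos hR₂ (hbH hy)) (fun y hy => sgE_pos hR₁ (hbH hy))
    (hdiv hR₂) (hdiv hR₁) (fun y hy => hmpeq y hy.1)
    (hT n M₁ M₂ P Q G hn hA hA' hG hS V F H hV hVc hVΓ hm x x' s t z r W₁ W₂ D₁ D₂ Y₁ Y₂ hL y₀
      (r / 4) (by positivity) hcb)
  -- the ball of equal models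
  obtain ⟨δ', hδ', h1, h2⟩ : ∃ δ', 0 < δ' ∧ δ' ≤ δ ∧ δ' ≤ r / 4 :=
    ⟨min δ (r / 4), lt_min hδ (by positivity), min_le_left _ _, min_le_right _ _⟩
  have hb1 : Metric.ball y₀ δ' ⊆ Metric.ball y₀ δ := Metric.ball_subset_ball h1
  have hb2 : Metric.ball y₀ δ' ⊆ Metric.ball z r := (Metric.ball_subset_ball h2).trans hbb
  have hne : (Metric.ball y₀ δ' ∩ mp V x Y₂ z r).Nonempty := by
    have h3 : y₀ ∈ closure (Metric.ball c₀ (dist c₀ y₀)) := by
      rw [closure_ball _ hc0.ne', Metric.mem_closedBall, dist_comm]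
    obtain ⟨y, hy1, hy2⟩ := mem_closure_iff_nhds.1 h3 _ (Metric.ball_mem_nhds y₀ hδ')
    exact ⟨y, hy1, hcU hy2⟩
  have hbs : Metric.ball y₀ δ' ⊆ Hs n := fun y hy => le_of_lt (show 0 < y 0 from hpos (hb2 hy))
  have hbo : RelOpen (Metric.ball y₀ δ') :=
    ⟨Metric.ball y₀ δ', Metric.isOpen_ball, (inter_eq_left.2 hbs).symm⟩
  have hbHB : Metric.ball y₀ δ' ⊆ HB z r := by rw [hHB]; exact hb2
  have heq : EqOnM W₁ W₂ (Metric.ball y₀ δ') := by
    refine rm_eq_intE hn Metric.isOpen_ball (convex_ball y₀ δ').isPreconnected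
      (hR₁.mono hbo hbHB) (hR₂.mono hbo hbHB) (fun y hy => hδe y (hb1 hy))
      (Metric.isOpen_ball.inter (hL.mp_open hV)) inter_subset_left hne (fun y hy => ?_)
    have e1 := hR₁.h y (hbHB hy.1)
    have e2 := hR₂.h y (hbHB hy.1)
    have e3 := hL.eq.h y hy.2
    rw [e1, e2] at e3
    have e4 := congrArg (fun T : EndF 1 => (trE T).re) e3
    simp only [Vale.Agent.P088.R2.H850.trE_one_smul] at e4
    have e5 := hR₁.pos y (hbHB hy.1)
    have e6 := hR₂.pos y (hbHB hy.1)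
    exact (pow_left_inj₀ e5.le e6.le two_ne_zero).1 e4
  obtain ⟨hpc, hGd⟩ := hL.good hV hδ' hb2 hne heq
  refine ⟨Th x Y₂ '' Metric.ball y₀ δ', hpc, hGd, ?_, fun hsub => ?_⟩
  · obtain ⟨y, hy1, hy2⟩ := hne
    exact ⟨Th x Y₂ y, hy2.2, mem_image_of_mem _ hy1⟩
  · exact hy₀U ⟨hb2 (Metric.mem_ball_self hδ'), hsub (mem_image_of_mem _ (Metric.mem_ball_self hδ'))⟩

end Vale.Agent.P088.R2.H710
end
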