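import Vale.Agent.P088.R2.H710.LX.InM

/-!
# P088: continuation of a match to a ball on which the models are equal
-/

open Bundle Manifold MeasureTheory Set Filter Topology
open scoped ContDiff

noncomputable section

set_option linter.all false

namespace Vale.Agent.P088.R2.H710

open Vale.Agent.P088 Vale.Agent.P088.EYM Vale.Agent.P088.R2.H509.S3
open Vale.Agent.P088.EYM.Q (IsMod)

universe u

variable {n N : ℕ} [NeZero n] {M₁ M₂ : Type u}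
  [TopologicalSpace M₁] [ChartedSpace (EuclideanHalfSpace n) M₁] [IsManifold (𝓡∂ n) ∞ M₁]
  [T2Space M₁] [CompactSpace M₁] [ConnectedSpace M₁] [MeasurableSpace M₁] [BorelSpace M₁]
  [TopologicalSpace M₂] [ChartedSpace (EuclideanHalfSpace n) M₂] [IsManifold (𝓡∂ n) ∞ M₂]
  [T2Space M₂] [CompactSpace M₂] [ConnectedSpace M₂] [MeasurableSpace M₂] [BorelSpace M₂]
  {P : One n N M₁} {Q : One n N M₂} {G : TM.Gl M₁ M₂} {V : Set M₂} {F : M₂ → M₁} {x : M₂} {x' : M₁}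
  {j0 : Fin N} {s : Fin N → (M₁ → Fib N) × (M₂ → Fib N)}
  {t : Fin n → (M₁ → Fib N) × (M₂ → Fib N)} {z : E n} {r : ℝ} {W₁ W₂ : Model n N}
  {D₁ D₂ : Set (E n)} {Y₁ Y₂ : E n → E n}

theorem LimM.hb (h : LimM P Q G V F x x' j0 s t z r W₁ W₂ D₁ D₂ Y₁ Y₂) :
    HB z r = Metric.ball z r ∧ Metric.ball z r ⊆ {y | 0 < y 0} := by
  obtain ⟨h1, h2⟩ := cClosed_HB (n := n) h.rz
  exact ⟨h1, h1 ▸ h2⟩

/-- the map from the coordinates to the manifold -/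
def Th (x : M₂) (Y₂ : E n → E n) (y : E n) : M₂ := (xc n x).symm (Y₂ y)

theorem LimM.thc (h : LimM P Q G V F x x' j0 s t z r W₁ W₂ D₁ D₂ Y₁ Y₂) :
    ContinuousOn (Th x Y₂) (Metric.ball z r) := by
  rw [← h.hb.1]
  exact (continuousOn_extChartAt_symm (I := 𝓡∂ n) x).comp h.i₂.pull.diffeo.smY.continuousOn
    fun y hy => h.i₂.sub (h.i₂.pull.diffeo.mapsY hy)

theorem LimM.thz (h : LimM P Q G V F x x' j0 s t z r W₁ W₂ D₁ D₂ Y₁ Y₂) : Th x Y₂ z = x := by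
  unfold Th
  rw [h.c₂]
  exact extChartAt_to_inv x

/-- the matched part in the coordinates -/
def mp (V : Set M₂) (x : M₂) (Y₂ : E n → E n) (z : E n) (r : ℝ) : Set (E n) :=
  {y ∈ Metric.ball z r | (xc n x).symm (Y₂ y) ∈ V}

theorem LimM.mp_open (h : LimM P Q G V F x x' j0 s t z r W₁ W₂ D₁ D₂ Y₁ Y₂) (hV : IsOpen V) :
    IsOpen (mp V x Y₂ z r) := h.thc.isOpen_inter_preimage Metric.isOpen_ball hV

theorem LimM.pos (h : LimM P Q G V F x x' j0 s t z r W₁ W₂ D₁ D₂ Y₁ Y₂) {y : E n}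
    (hy : y ∈ Metric.ball z r) : 0 < (Y₂ y) 0 := by
  have hyHB : y ∈ HB z r := by rw [h.hb.1]; exact hy
  exact bIntr n (HB z r) D₂ Y₂
      (Xco j0 (frm n x fun j => (s j).2) (fun a => lu (𝓡∂ n) x (t a).2))
      (cClosed_relOpen_HB z r) h.i₂.rel
      ⟨h.i₂.pull.diffeo.mapsY, h.i₂.pull.diffeo.mapsX, h.i₂.pull.diffeo.inv2,
        h.i₂.pull.diffeo.inv1, h.i₂.pull.diffeo.smY, h.i₂.pull.diffeo.smX⟩ y hyHB (h.hb.2 hy)

/-- the centre is a limit point of the matched part -/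
theorem LimM.mp_closure (h : LimM P Q G V F x x' j0 s t z r W₁ W₂ D₁ D₂ Y₁ Y₂)
    (hcl : x ∈ closure V) : z ∈ closure (mp V x Y₂ z r) := by
  obtain ⟨hrel₂, -, -, -⟩ := TM.fLoc n N M₂
  set X : E n → E n := Xco j0 (frm n x fun j => (s j).2) (fun a => lu (𝓡∂ n) x (t a).2) with hX
  have hzHB : z ∈ HB z r := by rw [h.hb.1]; exact Metric.mem_ball_self h.r0
  have hzD : xc n x x ∈ D₂ := by
    rw [← h.c₂]
    exact h.i₂.pull.diffeo.mapsY hzHB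
  have hXz : X (xc n x x) = z := by
    rw [← h.c₂]
    exact h.i₂.pull.diffeo.inv2 z hzHB
  rw [mem_closure_iff_nhds]
  intro N' hN'
  obtain ⟨O, hO, hDe⟩ := id h.i₂.rel
  have e1 : ∀ᶠ m in 𝓝 x, m ∈ (xc n x).source :=
    extChartAt_source_mem_nhds (I := 𝓡∂ n) x
  have e2 : Tendsto (fun m => xc n x m) (𝓝 x) (𝓝 (xc n x x)) :=
    (continuousAt_extChartAt (I := 𝓡∂ n) x).tendsto
  have e3 : xc n x x ∈ O := by
    rw [hDe] at hzD
    exact hzD.1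
  have e4 : ∀ᶠ m in 𝓝 x, m ∈ (xc n x).source ∧ xc n x m ∈ D₂ := by
    filter_upwards [e1, e2.eventually (hO.mem_nhds e3)] with m h1 h2
    refine ⟨h1, ?_⟩
    rw [hDe]
    exact ⟨h2, (hrel₂ x).subset ((xc n x).map_source h1)⟩
  have e5 : Tendsto X (𝓝[D₂] (xc n x x)) (𝓝 z) := by
    have := h.i₂.pull.diffeo.smX.continuousOn _ hzD
    rw [ContinuousWithinAt] at this
    rw [← hX, hXz] at this
    exact this
  have e6 : Tendsto (fun m => X (xc n x m)) (𝓝 x) (𝓝 z) := by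
    refine e5.comp (tendsto_nhdsWithin_iff.2 ⟨e2, ?_⟩)
    filter_upwards [e4] with m hm using hm.2
  have e7 : ∀ᶠ m in 𝓝 x, X (xc n x m) ∈ N' ∩ Metric.ball z r ∧ m ∈ (xc n x).source ∧
      xc n x m ∈ D₂ := by
    filter_upwards [e6.eventually (Filter.inter_mem hN'
      (Metric.isOpen_ball.mem_nhds (Metric.mem_ball_self h.r0))), e4] with m h1 h2 using ⟨h1, h2⟩
  obtain ⟨m, hm, hmV⟩ := mem_closure_iff_nhds.1 hcl _ e7
  obtain ⟨⟨h1, h2⟩, h3, h4⟩ := hm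
  refine ⟨X (xc n x m), h1, h2, ?_⟩
  have h5 : Y₂ (X (xc n x m)) = xc n x m := h.i₂.pull.diffeo.inv1 _ h4
  rw [h5, (xc n x).left_inv h3]
  exact hmV

/-- If the models are equal on a ball about `y₀` which meets the matched part, the image of the ball
consists of good points. -/
theorem LimM.good (h : LimM P Q G V F x x' j0 s t z r W₁ W₂ D₁ D₂ Y₁ Y₂) (hV : IsOpen V)
    {y₀ : E n} {δ : ℝ} (hδ : 0 < δ) (hsub : Metric.ball y₀ δ ⊆ Metric.ball z r)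
    (hne : (Metric.ball y₀ δ ∩ mp V x Y₂ z r).Nonempty)
    (heq : EqOnM W₁ W₂ (Metric.ball y₀ δ)) :
    IsPreconnected (Th x Y₂ '' Metric.ball y₀ δ) ∧
      Th x Y₂ '' Metric.ball y₀ δ ⊆ TM.Gd P Q G := by
  have hpc : IsPreconnected (Th x Y₂ '' Metric.ball y₀ δ) :=
    (convex_ball y₀ δ).isPreconnected.image _ (h.thc.mono hsub)
  refine ⟨hpc, ?_⟩
  have hHB : HB y₀ δ = Metric.ball y₀ δ :=
    inter_eq_left.2 fun y hy => le_of_lt (show 0 < y 0 from h.hb.2 (hsub hy))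
  have hHBs : HB y₀ δ ⊆ HB z r := by
    rw [hHB, h.hb.1]
    exact hsub
  obtain ⟨D₁', hD₁s, hI₁⟩ := h.i₁.restrict hHBs
  obtain ⟨D₂', hD₂s, hI₂⟩ := h.i₂.restrict hHBs
  have hHBo : RelOpen (HB y₀ δ) := cClosed_relOpen_HB y₀ δ
  have hEq : EqOnM W₁ W₂ (HB y₀ δ) := by rw [hHB]; exact heq
  have hL₁ : (P.loc x').Ok D₁' := bmodel_ok_mono ((TM.fLoc n N M₁).2.1 P x') hI₁.sub
  have hL₂ : (Q.loc x).Ok D₂' := bmodel_ok_mono ((TM.fLoc n N M₂).2.1 Q x) hI₂.sub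
  have hsec : ∀ u ∈ TM.PP P Q G, ∀ y ∈ HB y₀ δ,
      Ring.inverse (frm n x' (fun j => (s j).1) (Y₁ y)) (lu (𝓡∂ n) x' u.1 (Y₁ y)) =
      Ring.inverse (frm n x (fun j => (s j).2) (Y₂ y)) (lu (𝓡∂ n) x u.2 (Y₂ y)) := by
    intro u hu
    obtain ⟨f₁, f₂, hff, hf1, hf2⟩ := id hu
    have a1 : Sol (P.loc x') D₁' (lu (𝓡∂ n) x' u.1) :=
      bmodel_sol_mono (TM.fHarm n N M₁ P f₁ _ hf1 x') hI₁.sub
    have a2 : Sol (Q.loc x) D₂' (lu (𝓡∂ n) x u.2) :=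
      bmodel_sol_mono (TM.fHarm n N M₂ Q f₂ _ hf2 x) hI₂.sub
    have b1 := cClosed_tr bSol hI₁.rel hHBo hL₁ hI₁.mod.ok hI₁.pull a1
    have b2 := cClosed_tr bSol hI₂.rel hHBo hL₂ hI₂.mod.ok hI₂.pull a2
    have b3 : Sol W₁.toLD (HB y₀ δ)
        (fun y => Ring.inverse (frm n x (fun j => (s j).2) (Y₂ y)) (lu (𝓡∂ n) x u.2 (Y₂ y))) :=
      cClosed_sol_congr hHBo hEq.g hEq.B (fun _ _ => rfl) b2
    have b4 := cClosed_sol_sub hHBo hI₁.mod.ok b1 b3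
    have b5 := TM.fLinInt n N W₁.toLD (HB y₀ δ) (by rw [hHB]; exact Metric.isOpen_ball)
      inter_subset_right hI₁.mod.ok (by rw [hHB]; exact (convex_ball y₀ δ).isPreconnected) _ b4
      (Metric.ball y₀ δ ∩ mp V x Y₂ z r) (Metric.isOpen_ball.inter (h.mp_open hV))
      (by rw [hHB]; exact inter_subset_left) hne
      (fun y hy => sub_eq_zero.2 (h.sol u hu y hy.2.1 hy.2.2))
    intro y hy
    exact sub_eq_zero.1 (b5 y hy)
  obtain ⟨O', φ', V', hM, hO'⟩ := TM.gMatch n N M₁ M₂ P Q G x' x y₀ δ W₁.toLD W₂.toLD D₁' D₂' _ Y₁ _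
    Y₂ _ _ hI₁.rel hI₂.rel hI₁.sub hI₂.sub hI₁.pull hI₂.pull hEq.g hEq.B hEq.h hsec
  rintro _ ⟨y, hy, rfl⟩
  have hyHB : y ∈ HB y₀ δ := by rw [hHB]; exact hy
  exact ⟨O', φ', V', hM, hO' (Y₂ y) (hI₂.pull.diffeo.mapsY hyHB) (h.pos (hsub hy))⟩

end Vale.Agent.P088.R2.H710
end
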