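import Vale.Agent.P088.R2.H710.LX.CoordR
import Vale.Agent.P088.R2.H710.Free.Loc
import Vale.Agent.P088.R2.H710.Free.ModEq

/-!
# P088: the interior models near a limit point of a match
-/

open Bundle Manifold MeasureTheory Set Filter Topology
open scoped ContDiff

noncomputable section

set_option linter.all false

namespace Vale.Agent.P088.R2.H710

open Vale.Agent.P088 Vale.Agent.P088.EYM Vale.Agent.P088.R2.H509.S3
open Vale.Agent.P088.EYM.Q (IsMod)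

universe u

section

variable {n N : ℕ} [NeZero n] {M : Type u} [TopologicalSpace M]
  [ChartedSpace (EuclideanHalfSpace n) M] [IsManifold (𝓡∂ n) ∞ M] [MeasurableSpace M]

/-- A model near `q` in solution coordinates. -/
structure InM (P : One n N M) (q : M) (z : E n) (r : ℝ) (j0 : Fin N) (W : Model n N)
    (D : Set (E n)) (Y : E n → E n) (s : Fin N → M → Fib N) (t : Fin n → M → Fib N) : Prop where
  rel : RelOpen D
  sub : D ⊆ tg n q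
  pull : IsPull (P.loc q) W.toLD D (HB z r)
    (Xco j0 (frm n q s) (fun a => lu (𝓡∂ n) q (t a))) Y (frm n q s)
  mod : IsMod j0 W (HB z r)
  c : ∀ x ∈ D, ∀ a, lu (𝓡∂ n) q (t a) x =
    frm n q s x (W.c a (Xco j0 (frm n q s) (fun a => lu (𝓡∂ n) q (t a)) x))

variable {P : One n N M} {q : M} {z : E n} {r : ℝ} {j0 : Fin N} {W : Model n N}
  {D : Set (E n)} {Y : E n → E n} {s : Fin N → M → Fib N} {t : Fin n → M → Fib N}

theorem InM.restrict (h : InM P q z r j0 W D Y s t) {z' : E n} {r' : ℝ}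
    (hs : HB z' r' ⊆ HB z r) : ∃ D' ⊆ D, InM P q z' r' j0 W D' Y s t := by
  set X : E n → E n := Xco j0 (frm n q s) (fun a => lu (𝓡∂ n) q (t a)) with hX
  obtain ⟨O₃, hO₃, hO₃e⟩ := (continuousOn_iff'.1 h.pull.diffeo.smX.continuousOn)
    (Metric.ball z' r') Metric.isOpen_ball
  have hDD : X ⁻¹' Metric.ball z' r' ∩ D ⊆ D := inter_subset_right
  refine ⟨X ⁻¹' Metric.ball z' r' ∩ D, hDD, {
    rel := ?_
    sub := hDD.trans h.sub
    pull := ?_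
    mod := ⟨bmodel_ok_mono h.mod.ok hs, fun v => bmodel_sol_mono (h.mod.frame v) hs,
      fun a => bmodel_sol_mono (h.mod.sol a) hs, fun a x hx => h.mod.re a x (hs hx)⟩
    c := fun x hx => h.c x hx.2 }⟩
  · rw [hO₃e]
    exact h.rel.univ_inter hO₃
  · have k1 : MapsTo X (X ⁻¹' Metric.ball z' r' ∩ D) (HB z' r') := fun y hy =>
      ⟨hy.1, (h.pull.diffeo.mapsX hy.2).2⟩
    have k2 : MapsTo Y (HB z' r') (X ⁻¹' Metric.ball z' r' ∩ D) := fun y hy => by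
      refine ⟨?_, h.pull.diffeo.mapsY (hs hy)⟩
      have k3 : X (Y y) = y := h.pull.diffeo.inv2 y (hs hy)
      show X (Y y) ∈ Metric.ball z' r'
      rw [k3]
      exact hy.1
    exact cModEq_restrict h.pull hDD hs k1 k2

end

section

variable {n N : ℕ} [NeZero n] {M₁ M₂ : Type u}
  [TopologicalSpace M₁] [ChartedSpace (EuclideanHalfSpace n) M₁] [IsManifold (𝓡∂ n) ∞ M₁]
  [T2Space M₁] [CompactSpace M₁] [ConnectedSpace M₁] [MeasurableSpace M₁] [BorelSpace M₁]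
  [TopologicalSpace M₂] [ChartedSpace (EuclideanHalfSpace n) M₂] [IsManifold (𝓡∂ n) ∞ M₂]
  [T2Space M₂] [CompactSpace M₂] [ConnectedSpace M₂] [MeasurableSpace M₂] [BorelSpace M₂]

/-- The models near a limit point, in the coordinates given by real solutions; on the matched
part they are equal. -/
structure LimM (P : One n N M₁) (Q : One n N M₂) (G : TM.Gl M₁ M₂) (V : Set M₂) (F : M₂ → M₁)
    (x : M₂) (x' : M₁) (j0 : Fin N) (s : Fin N → (M₁ → Fib N) × (M₂ → Fib N))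
    (t : Fin n → (M₁ → Fib N) × (M₂ → Fib N)) (z : E n) (r : ℝ) (W₁ W₂ : Model n N)
    (D₁ D₂ : Set (E n)) (Y₁ Y₂ : E n → E n) : Prop where
  r0 : 0 < r
  rz : r ≤ z 0
  int₁ : x' ∈ Mi n M₁
  int₂ : x ∈ Mi n M₂
  ms : ∀ j, s j ∈ TM.PP P Q G
  mt : ∀ a, t a ∈ TM.PP P Q G
  rs₁ : ∀ j x, cj N ((s j).1 x) = (s j).1 x
  rs₂ : ∀ j x, cj N ((s j).2 x) = (s j).2 x
  rt₁ : ∀ a x, cj N ((t a).1 x) = (t a).1 x
  rt₂ : ∀ a x, cj N ((t a).2 x) = (t a).2 x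
  i₁ : InM P x' z r j0 W₁ D₁ Y₁ (fun j => (s j).1) (fun a => (t a).1)
  i₂ : InM Q x z r j0 W₂ D₂ Y₂ (fun j => (s j).2) (fun a => (t a).2)
  c₁ : Y₁ z = xc n x' x'
  c₂ : Y₂ z = xc n x x
  cl : x ∈ closure V
  off : ∀ y ∈ Metric.ball z r, ∀ m ∈ V, F m = (xc n x').symm (Y₁ y) →
    (xc n x).symm (Y₂ y) = m
  F : ∀ y ∈ Metric.ball z r, (xc n x).symm (Y₂ y) ∈ V →
    F ((xc n x).symm (Y₂ y)) = (xc n x').symm (Y₁ y)
  eq : EqOnM W₁ W₂ {y ∈ Metric.ball z r | (xc n x).symm (Y₂ y) ∈ V}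
  sol : ∀ u ∈ TM.PP P Q G, ∀ y ∈ Metric.ball z r, (xc n x).symm (Y₂ y) ∈ V →
    Ring.inverse (frm n x' (fun j => (s j).1) (Y₁ y)) (lu (𝓡∂ n) x' u.1 (Y₁ y)) =
    Ring.inverse (frm n x (fun j => (s j).2) (Y₂ y)) (lu (𝓡∂ n) x u.2 (Y₂ y))

theorem limM (P : One n N M₁) (Q : One n N M₂) (G : TM.Gl M₁ M₂) (hA : A0 P.A) (hA' : A0 Q.A)
    (hn : 3 ≤ n) (hN : 0 < N) (hG : G.Ok n N) (hS : TM.SameD P Q G) {V : Set M₂} (hV : IsOpen V)
    {F : M₂ → M₁} {H : M₂ → EndF N} (hm : TM.WMatch P Q G V F H) {x : M₂} (hx : x ∈ Mi n M₂)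
    (hcl : x ∈ closure V) :
    ∃ (x' : M₁) (j0 : Fin N) (s : Fin N → (M₁ → Fib N) × (M₂ → Fib N))
      (t : Fin n → (M₁ → Fib N) × (M₂ → Fib N)) (z : E n) (r : ℝ) (W₁ W₂ : Model n N)
      (D₁ D₂ : Set (E n)) (Y₁ Y₂ : E n → E n),
      LimM P Q G V F x x' j0 s t z r W₁ W₂ D₁ D₂ Y₁ Y₂ := by
  haveI : SecondCountableTopology (EuclideanHalfSpace n) := by
    unfold EuclideanHalfSpace
    infer_instance
  haveI : SecondCountableTopology M₂ :=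
    ChartedSpace.secondCountable_of_sigmaCompact (EuclideanHalfSpace n) M₂
  obtain ⟨⟨hPs, hQs, -⟩, -⟩ := TM.gData n N M₁ M₂ P Q G hG hS
  obtain ⟨hMo, -, -⟩ := TM.fConn n M₂
  obtain ⟨hrel₁, -, hbd₁, -⟩ := TM.fLoc n N M₁
  obtain ⟨hrel₂, -, hbd₂, -⟩ := TM.fLoc n N M₂
  have hb₁ := cClosed_bdry hG.rel₁ hG.ne₁
  have hb₂ := cClosed_bdry hG.rel₂ hG.ne₂
  obtain ⟨x', V₀, hx', hV₀, hFl, hHl, hrel⟩ :=
    lim_match (by omega) hN hG hPs hQs hV hm hx hcl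
  -- a sequence
  have hcl' : x ∈ closure (V ∩ Mi n M₂) := by
    rw [inter_comm]
    exact hMo.inter_closure ⟨hx, hcl⟩
  obtain ⟨y, hyV, hyt⟩ := mem_closure_iff_seq_limit.1 hcl'
  have hyt' : Tendsto y atTop (𝓝[V] x) :=
    tendsto_nhdsWithin_iff.2 ⟨hyt, Eventually.of_forall fun k => (hyV k).1⟩
  have hLM : TM.LMatch P Q G (V ∩ Mi n M₂) F H := {
    isOpen := hV.inter hMo
    sub := inter_subset_right
    maps := fun x hx => hm.int x hx.1 hx.2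
    smφ := hm.smF.mono inter_subset_left
    smV := hm.smH.mono inter_subset_left
    unit := fun x hx => hm.unit x hx.1
    met := fun x hx => hm.met x hx.1
    con := fun x hx => hm.con x hx.1
    sol := fun u hu x hx => hm.sol u hu x hx.1 }
  obtain ⟨j0, s, t, hs, ht, ⟨hr1, hr2, hr3, hr4⟩, hu1, hu2, hd1, hd2, hpos, heq⟩ :=
    coordR P Q G hA hA' x x' V₀ y (fun _ => V ∩ Mi n M₂) (fun _ => F) (fun _ => H) hn hN hG hS hx
      hx' hV₀ (fun k => ⟨hLM, hyV k⟩) hyt (hFl.comp hyt') (hHl.comp hyt') hrel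
  have hpos' := hpos
  rw [heq] at hpos'
  have hs1 : ∀ j, ∃ f, P.Harm f (s j).1 := fun j => by
    obtain ⟨f₁, f₂, _, h1, _⟩ := hs j; exact ⟨f₁, h1⟩
  have hs2 : ∀ j, ∃ f, Q.Harm f (s j).2 := fun j => by
    obtain ⟨f₁, f₂, _, _, h1⟩ := hs j; exact ⟨f₂, h1⟩
  have ht1 : ∀ j, ∃ f, P.Harm f (t j).1 := fun j => by
    obtain ⟨f₁, f₂, _, h1, _⟩ := ht j; exact ⟨f₁, h1⟩
  have ht2 : ∀ j, ∃ f, Q.Harm f (t j).2 := fun j => by
    obtain ⟨f₁, f₂, _, _, h1⟩ := ht j; exact ⟨f₂, h1⟩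
  obtain ⟨Y₁, W₁, r₁, hr₁, h₁⟩ := Free.modelAt TM.fHarm TM.fUniq TM.fLoc hN P hb₁ j0 hx'
    (fun j => (s j).1) (fun a => (t a).1) hs1 ht1 hu1 hd1 hpos
  obtain ⟨Y₂, W₂, r₂, hr₂, h₂⟩ := Free.modelAt TM.fHarm TM.fUniq TM.fLoc hN Q hb₂ j0 hx
    (fun j => (s j).2) (fun a => (t a).2) hs2 ht2 hu2 hd2 hpos'
  rw [← heq] at h₂
  set ζ := Xco j0 (frm n x' fun j => (s j).1) (fun a => lu (𝓡∂ n) x' (t a).1)
    (xc n x' x') with hζ
  obtain ⟨r, hr, hra, hrb, hrc⟩ : ∃ r, 0 < r ∧ r ≤ r₁ ∧ r ≤ r₂ ∧ r ≤ ζ 0 :=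
    ⟨min (min r₁ r₂) (ζ 0), lt_min (lt_min hr₁ hr₂) hpos,
      (min_le_left _ _).trans (min_le_left _ _), (min_le_left _ _).trans (min_le_right _ _),
      min_le_right _ _⟩
  obtain ⟨D₁, hD₁s, hD₁, hz₁, hpull₁, hmod₁, hc₁⟩ := h₁ r hr hra
  obtain ⟨D₂, hD₂s, hD₂, hz₂, hpull₂, hmod₂, hc₂⟩ := h₂ r hr hrb
  obtain ⟨hHB, hHBpos⟩ := cClosed_HB (n := n) hrc
  have hI₁ : InM P x' ζ r j0 W₁ D₁ Y₁ (fun j => (s j).1) (fun a => (t a).1) :=
    ⟨hD₁, hD₁s, hpull₁, hmod₁, hc₁⟩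
  have hI₂ : InM Q x ζ r j0 W₂ D₂ Y₂ (fun j => (s j).2) (fun a => (t a).2) :=
    ⟨hD₂, hD₂s, hpull₂, hmod₂, hc₂⟩
  have hY₁ζ : Y₁ ζ = xc n x' x' := hpull₁.diffeo.inv1 _ hz₁
  have hY₂ζ : Y₂ ζ = xc n x x := by
    rw [heq]
    exact hpull₂.diffeo.inv1 _ hz₂
  -- the map to the manifold
  have hΘc : ContinuousOn (fun y => (xc n x).symm (Y₂ y)) (Metric.ball ζ r) := by
    rw [← hHB]
    exact (continuousOn_extChartAt_symm (I := 𝓡∂ n) x).comp hpull₂.diffeo.smY.continuousOn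
      fun y hy => hD₂s (hpull₂.diffeo.mapsY hy)
  have hΘζ : (xc n x).symm (Y₂ ζ) = x := by
    rw [hY₂ζ]
    exact extChartAt_to_inv x
  -- the good neighbourhood
  obtain ⟨O₁, hO₁, hD₁e⟩ := id hD₁
  have hev : ∀ᶠ y in 𝓝[V] x, F y ∈ (xc n x').source ∧ xc n x' (F y) ∈ D₁ := by
    have e1 : ∀ᶠ y in 𝓝[V] x, F y ∈ (xc n x').source :=
      hFl.eventually (extChartAt_source_mem_nhds (I := 𝓡∂ n) x')
    have e2 : Tendsto (fun y => xc n x' (F y)) (𝓝[V] x) (𝓝 (xc n x' x')) :=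
      (continuousAt_extChartAt (I := 𝓡∂ n) x').tendsto.comp hFl
    have e3 : xc n x' x' ∈ O₁ := by
      rw [hD₁e] at hz₁
      exact hz₁.1
    filter_upwards [e1, e2.eventually (hO₁.mem_nhds e3)] with y h1 h2
    refine ⟨h1, ?_⟩
    rw [hD₁e]
    exact ⟨h2, (hrel₁ x').subset ((xc n x').map_source h1)⟩
  rw [eventually_nhdsWithin_iff] at hev
  have hev2 : ∀ᶠ y in 𝓝 ζ, (xc n x).symm (Y₂ y) ∈ V →
      F ((xc n x).symm (Y₂ y)) ∈ (xc n x').source ∧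
        xc n x' (F ((xc n x).symm (Y₂ y))) ∈ D₁ := by
    have e1 : Tendsto (fun y => (xc n x).symm (Y₂ y)) (𝓝 ζ) (𝓝 x) := by
      have := (hΘc ζ (Metric.mem_ball_self hr)).continuousAt (Metric.isOpen_ball.mem_nhds
        (Metric.mem_ball_self hr))
      rw [ContinuousAt, hΘζ] at this
      exact this
    exact e1.eventually hev
  obtain ⟨δ, hδ, hball⟩ := Metric.eventually_nhds_iff_ball.1 hev2
  obtain ⟨ρ, hρ, hρδ, hρr⟩ : ∃ ρ, 0 < ρ ∧ ρ ≤ δ ∧ ρ ≤ r :=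
    ⟨min δ r, lt_min hδ hr, min_le_left _ _, min_le_right _ _⟩
  have hsubb : Metric.ball ζ ρ ⊆ Metric.ball ζ r := Metric.ball_subset_ball hρr
  have hsub : HB ζ ρ ⊆ HB ζ r := fun y hy => ⟨hsubb hy.1, hy.2⟩
  -- the application of `modEq`
  have key : ∀ y ∈ Metric.ball ζ ρ, (xc n x).symm (Y₂ y) ∈ V →
      F ((xc n x).symm (Y₂ y)) = (xc n x').symm (Y₁ y) ∧
      (W₁.g y = W₂.g y ∧ (∀ j, W₁.B j y = W₂.B j y) ∧ W₁.h y = W₂.h y ∧
        ∀ a, W₁.c a y = W₂.c a y) ∧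
      ∀ u ∈ TM.PP P Q G,
        Ring.inverse (frm n x' (fun j => (s j).1) (Y₁ y)) (lu (𝓡∂ n) x' u.1 (Y₁ y)) =
        Ring.inverse (frm n x (fun j => (s j).2) (Y₂ y)) (lu (𝓡∂ n) x u.2 (Y₂ y)) := by
    intro y hy hyV'
    have hyHB : y ∈ HB ζ r := by
      rw [hHB]
      exact hsubb hy
    have hYD : Y₂ y ∈ D₂ := hpull₂.diffeo.mapsY hyHB
    have hYt : Y₂ y ∈ tg n x := hD₂s hYD
    have h0 : 0 < (Y₂ y) 0 := bIntr n (HB ζ r) D₂ Y₂
      (Xco j0 (frm n x fun j => (s j).2) (fun a => lu (𝓡∂ n) x (t a).2))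
      (cClosed_relOpen_HB ζ r) hD₂
      ⟨hpull₂.diffeo.mapsY, hpull₂.diffeo.mapsX, hpull₂.diffeo.inv2, hpull₂.diffeo.inv1,
        hpull₂.diffeo.smY, hpull₂.diffeo.smX⟩ y hyHB (hHBpos hyHB)
    have hmi : (xc n x).symm (Y₂ y) ∈ Mi n M₂ := cCoord_int hbd₂ hYt h0
    obtain ⟨h1, h2⟩ := hball y (Metric.ball_subset_ball hρδ hy) hyV'
    obtain ⟨U, hUo, hUs, hUy, hUe, hUu, hUF⟩ := Free.modEq n N M₁ M₂ P Q G j0 s t x' x ζ r W₁ W₂
      D₁ D₂ Y₁ Y₂ hs ht hD₁ hD₂ hD₁s hD₂s hpull₁ hpull₂ hc₁ hc₂ (V ∩ Mi n M₂) F H hLM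
      ((xc n x).symm (Y₂ y)) ⟨hyV', hmi⟩ ((xc n x).map_target hYt)
      (by rw [(xc n x).right_inv hYt]; exact hYD) h1 h2
    rw [(xc n x).right_inv hYt, hpull₂.diffeo.inv2 y hyHB] at hUy
    obtain ⟨-, h3, h4⟩ := hUF y hUy
    refine ⟨?_, ⟨hUe.g y hUy, hUe.B y hUy, hUe.h y hUy, hUe.c y hUy⟩, fun u hu => hUu u hu y hUy⟩
    rw [← h4]
    exact ((xc n x').left_inv h3).symm
  -- the images of the other points of `V`
  have hΘ₁c : ContinuousOn (fun y => (xc n x').symm (Y₁ y)) (Metric.ball ζ r) := by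
    rw [← hHB]
    exact (continuousOn_extChartAt_symm (I := 𝓡∂ n) x').comp hpull₁.diffeo.smY.continuousOn
      fun y hy => hD₁s (hpull₁.diffeo.mapsY hy)
  have hΘ₁ζ : (xc n x').symm (Y₁ ζ) = x' := by
    rw [hY₁ζ]
    exact extChartAt_to_inv x'
  have hoff : ∀ᶠ y in 𝓝 ζ, ∀ m ∈ V, F m = (xc n x').symm (Y₁ y) →
      (xc n x).symm (Y₂ y) = m := by
    by_contra hcon
    rw [Filter.not_eventually] at hcon
    obtain ⟨b, hbt, hb⟩ := Filter.exists_seq_forall_of_frequently hcon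
    have hb' : ∀ k, ∃ m ∈ V, F m = (xc n x').symm (Y₁ (b k)) ∧
        (xc n x).symm (Y₂ (b k)) ≠ m := by
      intro k
      have := hb k
      push Not at this
      exact this
    choose m hmV hmF hmne using hb'
    have e1 : Tendsto (fun k => F (m k)) atTop (𝓝 x') := by
      have e2 := (hΘ₁c ζ (Metric.mem_ball_self hr)).continuousAt (Metric.isOpen_ball.mem_nhds
        (Metric.mem_ball_self hr))
      rw [ContinuousAt, hΘ₁ζ] at e2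
      exact (e2.comp hbt).congr fun k => (hmF k).symm
    have e3 : Tendsto m atTop (𝓝 x) := lim_off (by omega) hN hG hPs hQs hm hx hx' hV₀ hrel hmV e1
    obtain ⟨O₂, hO₂, hD₂e⟩ := id hD₂
    have e4 : Tendsto (fun k => xc n x (m k)) atTop (𝓝 (xc n x x)) :=
      (continuousAt_extChartAt (I := 𝓡∂ n) x).tendsto.comp e3
    have e5 : ∀ᶠ k in atTop, m k ∈ (xc n x).source ∧ xc n x (m k) ∈ D₂ := by
      have e6 : xc n x x ∈ O₂ := by
        rw [hD₂e] at hz₂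
        exact hz₂.1
      filter_upwards [e3.eventually (extChartAt_source_mem_nhds (I := 𝓡∂ n) x),
        e4.eventually (hO₂.mem_nhds e6)] with k h1 h2
      refine ⟨h1, ?_⟩
      rw [hD₂e]
      exact ⟨h2, (hrel₂ x).subset ((xc n x).map_source h1)⟩
    set X₂ : E n → E n := Xco j0 (frm n x fun j => (s j).2) (fun a => lu (𝓡∂ n) x (t a).2) with hX₂
    have hX₂z : X₂ (xc n x x) = ζ := heq.symm
    have e6 : Tendsto (fun k => X₂ (xc n x (m k))) atTop (𝓝 ζ) := by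
      have e7 := hpull₂.diffeo.smX.continuousOn _ hz₂
      rw [ContinuousWithinAt, hX₂z] at e7
      refine e7.comp (tendsto_nhdsWithin_iff.2 ⟨e4, ?_⟩)
      filter_upwards [e5] with k hk using hk.2
    have hζρ : Metric.ball ζ ρ ∈ 𝓝 ζ := Metric.ball_mem_nhds ζ hρ
    obtain ⟨k, ⟨hk1, hk2⟩, hk3, hk4⟩ :=
      (e5.and ((e6.eventually hζρ).and (hbt.eventually hζρ))).exists
    have k1 : Y₂ (X₂ (xc n x (m k))) = xc n x (m k) := hpull₂.diffeo.inv1 _ hk2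
    have k2 : (xc n x).symm (Y₂ (X₂ (xc n x (m k)))) = m k := by
      rw [k1]
      exact (xc n x).left_inv hk1
    have k3 := (key _ hk3 (by rw [k2]; exact hmV k)).1
    rw [k2, hmF k] at k3
    have k4 : b k ∈ HB ζ r := by rw [hHB]; exact hsubb hk4
    have k5 : X₂ (xc n x (m k)) ∈ HB ζ r := by rw [hHB]; exact hsubb hk3
    have k6 : Y₁ (b k) = Y₁ (X₂ (xc n x (m k))) :=
      (xc n x').symm.injOn (hD₁s (hpull₁.diffeo.mapsY k4)) (hD₁s (hpull₁.diffeo.mapsY k5)) k3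
    have k7 : b k = X₂ (xc n x (m k)) := by
      rw [← hpull₁.diffeo.inv2 _ k4, k6, hpull₁.diffeo.inv2 _ k5]
    exact hmne k (by rw [k7]; exact k2)
  obtain ⟨δ', hδ', hball'⟩ := Metric.eventually_nhds_iff_ball.1 hoff
  obtain ⟨ρ', hρ', hρδ', hρρ'⟩ : ∃ ρ', 0 < ρ' ∧ ρ' ≤ δ' ∧ ρ' ≤ ρ :=
    ⟨min δ' ρ, lt_min hδ' hρ, min_le_left _ _, min_le_right _ _⟩
  have hsubb' : Metric.ball ζ ρ' ⊆ Metric.ball ζ ρ := Metric.ball_subset_ball hρρ'
  have hsub' : HB ζ ρ' ⊆ HB ζ r := fun y hy => ⟨hsubb (hsubb' hy.1), hy.2⟩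
  obtain ⟨D₁', hD₁'s, hI₁'⟩ := hI₁.restrict hsub'
  obtain ⟨D₂', hD₂'s, hI₂'⟩ := hI₂.restrict hsub'
  exact ⟨x', j0, s, t, ζ, ρ', W₁, W₂, D₁', D₂', Y₁, Y₂, {
    r0 := hρ'
    rz := (hρρ'.trans hρr).trans hrc
    int₁ := hx'
    int₂ := hx
    ms := hs
    mt := ht
    rs₁ := hr1
    rs₂ := hr2
    rt₁ := hr3
    rt₂ := hr4
    i₁ := hI₁'
    i₂ := hI₂'
    c₁ := hY₁ζ
    c₂ := hY₂ζ
    cl := hcl
    F := fun y hy hyV' => (key y (hsubb' hy) hyV').1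
    off := fun y hy => hball' y (Metric.ball_subset_ball hρδ' hy)
    eq := ⟨fun y hy => (key y (hsubb' hy.1) hy.2).2.1.1,
      fun y hy => (key y (hsubb' hy.1) hy.2).2.1.2.1,
      fun y hy => (key y (hsubb' hy.1) hy.2).2.1.2.2.1,
      fun y hy => (key y (hsubb' hy.1) hy.2).2.1.2.2.2⟩
    sol := fun u hu y hy hyV' => (key y (hsubb' hy) hyV').2.2 u hu }⟩

end

end Vale.Agent.P088.R2.H710
end
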