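import Vale.Agent.P088.R2.H710.GSt

/-!
# P088: limits of a match at interior points
-/

set_option linter.all false

open Bundle Manifold MeasureTheory Set Filter Topology Metric
open scoped ContDiff Matrix

noncomputable section

namespace Vale.Agent.P088.R2.H710

open Vale.Agent.P088
open Vale.Agent.P088.EYM hiding CUnm_statement LMatch CCont_statement CReg_statement CDiff_statement cCont cReg cDiff cDiff_ext PP SameD Gd CData_statement CMatch_statement CNear_statement CLim_statement CCoord_statement CModEq_statement CClosed_statement CGlobal_statement CChart_statement CTensor_statement wGlue wInj wClosed cUnm cMatch cChart cData cLim cCoord cModEq cClosed cGlobal cNear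

universe u

variable {n N : ℕ} [NeZero n] {M₁ M₂ : Type u}
  [TopologicalSpace M₁] [ChartedSpace (EuclideanHalfSpace n) M₁] [IsManifold (𝓡∂ n) ∞ M₁]
  [T2Space M₁] [CompactSpace M₁] [ConnectedSpace M₁] [MeasurableSpace M₁] [BorelSpace M₁]
  [TopologicalSpace M₂] [ChartedSpace (EuclideanHalfSpace n) M₂] [IsManifold (𝓡∂ n) ∞ M₂]
  [T2Space M₂] [CompactSpace M₂] [ConnectedSpace M₂] [MeasurableSpace M₂] [BorelSpace M₂]
  {P : One n N M₁} {Q : One n N M₂} {G : TM.Gl M₁ M₂}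

/-- A limit of a match at an interior point is an interior point. -/
theorem lim_int (hn : 2 ≤ n) (hN : 0 < N) (hG : G.Ok n N) (hP : P.HasSol G.Γ₁)
    (hQ : Q.HasSol G.Γ₂) {x₀ : M₂} (hx₀ : x₀ ∈ Mi n M₂) {x₀' : M₁} {V₀ : EndF N}
    (hrel : ∀ u ∈ TM.PP P Q G, u.2 x₀ = V₀ (u.1 x₀')) : x₀' ∈ Mi n M₁ := by
  by_contra hnot
  have hbdx : x₀' ∈ (𝓡∂ n).boundary M₁ := by
    rw [← ModelWithCorners.compl_interior]
    exact hnot
  have hb₂ : G.Γ₂ ⊆ (𝓡∂ n).boundary M₂ := by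
    obtain ⟨O', -, hO'⟩ := hG.rel₂
    intro x hx
    rw [hO'] at hx
    exact hx.2
  let e : Fib N := EuclideanSpace.single ⟨0, hN⟩ (1 : ℂ)
  have key : ∃ f u, IsBdryData (𝓡∂ n) G.Γ₂ f ∧ Q.Harm f u ∧
      (x₀' ∈ G.Γ₁ → f (G.χ x₀') = 0) ∧ u x₀ = e := by
    by_cases h : x₀' ∈ G.Γ₁
    · obtain ⟨f, u, h1, h2, h3, h4⟩ := TM.wAvoid TM.fRunge TM.fConn TM.fLoc hn hG.rel₂ hG.ne₂ hQ hx₀
        (G.χ x₀') (hb₂ (hG.maps' h)) e
      exact ⟨f, u, h1, h2, fun _ => h3, h4⟩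
    · obtain ⟨p, hp⟩ := hG.ne₂
      obtain ⟨f, u, h1, h2, -, h4⟩ := TM.wAvoid TM.fRunge TM.fConn TM.fLoc hn hG.rel₂ ⟨p, hp⟩ hQ hx₀
        p (hb₂ hp) e
      exact ⟨f, u, h1, h2, fun h' => absurd h' h, h4⟩
  obtain ⟨f, u₂, hf, hu₂, h3, h4⟩ := key
  obtain ⟨f₁, hf₁, hff⟩ := hG.ext' f hf
  have hm : TM.MD n G f₁ f :=
    ⟨hf₁, hf, fun x hx => by rw [hff _ (hG.maps hx), hG.inv x hx]⟩
  obtain ⟨u₁, hu₁⟩ := hP f₁ hf₁
  have h1 := hrel (u₁, u₂) ⟨f₁, f, hm, hu₁, hu₂⟩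
  have hfz : f₁ x₀' = 0 := by
    by_cases h : x₀' ∈ G.Γ₁
    · rw [hff x₀' h]
      exact h3 h
    · exact TM.wZero hf₁ hbdx h
  have h2 : u₁ x₀' = 0 := by rw [hu₁.boundary x₀' hbdx, hfz]
  simp only [h4, h2, map_zero] at h1
  have h5 := congrArg (fun v : Fib N => v ⟨0, hN⟩) h1
  simp [e] at h5

/-- A match on `V` has a limit at every interior point of the closure of `V`. -/
theorem lim_match (hn : 2 ≤ n) (hN : 0 < N) (hG : G.Ok n N) (hP : P.HasSol G.Γ₁)
    (hQ : Q.HasSol G.Γ₂) {V : Set M₂} (hV : IsOpen V) {F : M₂ → M₁} {H : M₂ → EndF N}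
    (hm : TM.WMatch P Q G V F H) {x : M₂} (hx : x ∈ Mi n M₂) (hcl : x ∈ closure V) :
    ∃ (x' : M₁) (V₀ : EndF N), x' ∈ Mi n M₁ ∧ V₀ ∈ unitary (EndF N) ∧
      Tendsto F (𝓝[V] x) (𝓝 x') ∧ Tendsto H (𝓝[V] x) (𝓝 V₀) ∧
      ∀ u ∈ TM.PP P Q G, u.2 x = V₀ (u.1 x') := by
  haveI : (𝓝[V] x).NeBot := mem_closure_iff_nhdsWithin_neBot.1 hcl
  have hcomp : IsCompact ((univ : Set M₁) ×ˢ (unitary (EndF N) : Set (EndF N))) :=
    isCompact_univ.prod (cLim_compact N hN)
  set f : M₂ → M₁ × EndF N := fun y => (F y, H y) with hf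
  have hle : map f (𝓝[V] x) ≤ 𝓟 ((univ : Set M₁) ×ˢ (unitary (EndF N) : Set (EndF N))) := by
    rw [le_principal_iff, mem_map]
    filter_upwards [self_mem_nhdsWithin] with y hy using ⟨mem_univ _, hm.unit y hy⟩
  -- cluster points satisfy the relation
  have hclu : ∀ a : M₁ × EndF N, ClusterPt a (map f (𝓝[V] x)) →
      ∀ u ∈ TM.PP P Q G, u.2 x = a.2 (u.1 a.1) := by
    intro a ha u hu
    obtain ⟨f₁, f₂, -, hPf, hQf⟩ := id hu
    have hc1 : Continuous u.1 := hPf.smooth.continuous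
    have hc2 : Continuous u.2 := hQf.smooth.continuous
    have hg : Continuous fun p : M₁ × EndF N => p.2 (u.1 p.1) := by
      have h2 : Continuous fun q : EndF N × Fib N => q.1 q.2 :=
        isBoundedBilinearMap_apply.continuous
      exact h2.comp (continuous_snd.prodMk (hc1.comp continuous_fst))
    have h1 : ClusterPt (a.2 (u.1 a.1)) (map (fun p : M₁ × EndF N => p.2 (u.1 p.1))
        (map f (𝓝[V] x))) := ha.map hg.continuousAt tendsto_map
    have h2 : map (fun p : M₁ × EndF N => p.2 (u.1 p.1)) (map f (𝓝[V] x)) ≤ 𝓝 (u.2 x) := by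
      rw [map_map]
      have h3 : Tendsto u.2 (𝓝[V] x) (𝓝 (u.2 x)) := (hc2.tendsto x).mono_left nhdsWithin_le_nhds
      refine Tendsto.congr' ?_ h3
      filter_upwards [self_mem_nhdsWithin] with y hy using hm.sol u hu y hy
    have h3 : ClusterPt (a.2 (u.1 a.1)) (𝓝 (u.2 x)) := h1.mono h2
    haveI : (𝓝 (a.2 (u.1 a.1)) ⊓ 𝓝 (u.2 x)).NeBot := h3
    exact (eq_of_nhds_neBot this).symm
  obtain ⟨a, haK, ha⟩ := hcomp hle
  have harel := hclu a ha
  have haint := lim_int hn hN hG hP hQ hx harel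
  have hlim : map f (𝓝[V] x) ≤ 𝓝 a := by
    refine hcomp.le_nhds_of_unique_clusterPt (le_principal_iff.1 hle) ?_
    intro b hbK hb
    have hbrel := hclu b hb
    have hbint := lim_int hn hN hG hP hQ hx hbrel
    obtain ⟨h1, h2⟩ := TM.wUniq TM.fRunge TM.fConn hn hN hG hP hQ hbint haint hbK.2
      (fun u hu => by rw [← hbrel u hu, ← harel u hu])
    exact Prod.ext h1 h2
  have ht : Tendsto f (𝓝[V] x) (𝓝 a) := hlim
  exact ⟨a.1, a.2, haint, haK.2, (continuous_fst.tendsto a).comp ht,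
    (continuous_snd.tendsto a).comp ht, harel⟩

/-- If the images of points of `V` tend to the limit point in `M₁`, the points tend to `x`. -/
theorem lim_off (hn : 2 ≤ n) (hN : 0 < N) (hG : G.Ok n N) (hP : P.HasSol G.Γ₁)
    (hQ : Q.HasSol G.Γ₂) {V : Set M₂} {F : M₂ → M₁} {H : M₂ → EndF N}
    (hm : TM.WMatch P Q G V F H) {x : M₂} (hx : x ∈ Mi n M₂) {x' : M₁} (hx' : x' ∈ Mi n M₁)
    {V₀ : EndF N} (hV₀ : V₀ ∈ unitary (EndF N)) (hrel : ∀ u ∈ TM.PP P Q G, u.2 x = V₀ (u.1 x'))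
    {a : ℕ → M₂} (ha : ∀ k, a k ∈ V) (hF : Tendsto (fun k => F (a k)) atTop (𝓝 x')) :
    Tendsto a atTop (𝓝 x) := by
  have hun : ∀ {W : EndF N}, W ∈ unitary (EndF N) → ∀ v : Fib N, (star W) (W v) = v := by
    intro W hW v
    have h1 := (Unitary.mem_iff.1 hW).1
    have h2 : (star W * W) v = v := by rw [h1]; rfl
    exact h2
  have hcomp : IsCompact ((univ : Set M₂) ×ˢ (unitary (EndF N) : Set (EndF N))) :=
    isCompact_univ.prod (cLim_compact N hN)
  set f : ℕ → M₂ × EndF N := fun k => (a k, H (a k)) with hf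
  have hle : map f atTop ≤ 𝓟 ((univ : Set M₂) ×ˢ (unitary (EndF N) : Set (EndF N))) := by
    rw [le_principal_iff, mem_map]
    exact Eventually.of_forall fun k => ⟨mem_univ _, hm.unit _ (ha k)⟩
  have hclu : ∀ b : M₂ × EndF N, ClusterPt b (map f atTop) →
      ∀ u ∈ TM.PP P Q G, u.2 b.1 = b.2 (u.1 x') := by
    intro b hb u hu
    obtain ⟨f₁, f₂, -, hPf, hQf⟩ := id hu
    have hc1 : Continuous u.1 := hPf.smooth.continuous
    have hc2 : Continuous u.2 := hQf.smooth.continuous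
    have happ : Continuous fun q : EndF N × Fib N => q.1 q.2 :=
      isBoundedBilinearMap_apply.continuous
    have hg : Continuous fun p : M₂ × EndF N => u.2 p.1 - p.2 (u.1 x') := by
      refine (hc2.comp continuous_fst).sub ?_
      exact happ.comp (continuous_snd.prodMk continuous_const)
    have h1 : ClusterPt (u.2 b.1 - b.2 (u.1 x'))
        (map (fun p : M₂ × EndF N => u.2 p.1 - p.2 (u.1 x')) (map f atTop)) :=
      hb.map hg.continuousAt tendsto_map
    have h2 : map (fun p : M₂ × EndF N => u.2 p.1 - p.2 (u.1 x')) (map f atTop) ≤ 𝓝 0 := by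
      rw [map_map]
      have h3 : Tendsto (fun k => ‖u.1 (F (a k)) - u.1 x'‖) atTop (𝓝 0) := by
        have h4 : Tendsto (fun k => u.1 (F (a k))) atTop (𝓝 (u.1 x')) :=
          (hc1.tendsto x').comp hF
        have h5 := (h4.sub (tendsto_const_nhds (x := u.1 x'))).norm
        rwa [sub_self, norm_zero] at h5
      refine squeeze_zero_norm (fun k => ?_) h3
      show ‖u.2 (a k) - (H (a k)) (u.1 x')‖ ≤ _
      rw [hm.sol u hu _ (ha k), ← map_sub]
      exact le_of_eq (Unitary.norm_map (⟨H (a k), hm.unit _ (ha k)⟩ : unitary (EndF N)) _)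
    have h3 : ClusterPt (u.2 b.1 - b.2 (u.1 x')) (𝓝 0) := h1.mono h2
    haveI : (𝓝 (u.2 b.1 - b.2 (u.1 x')) ⊓ 𝓝 (0 : Fib N)).NeBot := h3
    exact sub_eq_zero.1 (eq_of_nhds_neBot this)
  have hlim : map f atTop ≤ 𝓝 (x, V₀) := by
    refine hcomp.le_nhds_of_unique_clusterPt (le_principal_iff.1 hle) ?_
    intro b hbK hb
    have hbrel := hclu b hb
    have hsw : ∀ u ∈ TM.PP Q P G.symm, u.2 x' = (star b.2) (u.1 b.1) := by
      intro u hu
      have h1 := hbrel _ (TM.PP_swap hG.symm hu)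
      change u.1 b.1 = b.2 (u.2 x') at h1
      rw [h1, hun hbK.2]
    have hsw' : ∀ u ∈ TM.PP Q P G.symm, u.2 x' = (star V₀) (u.1 x) := by
      intro u hu
      have h1 := hrel _ (TM.PP_swap hG.symm hu)
      change u.1 x = V₀ (u.2 x') at h1
      rw [h1, hun hV₀]
    have hbint : b.1 ∈ Mi n M₂ := lim_int hn hN hG.symm hQ hP hx' hsw
    obtain ⟨h1, h2⟩ := TM.wUniq TM.fRunge TM.fConn hn hN hG.symm hQ hP hbint hx
      (Unitary.star_mem hbK.2) (fun u hu => by rw [← hsw u hu, ← hsw' u hu])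
    exact Prod.ext h1 (star_injective h2)
  have ht : Tendsto f atTop (𝓝 (x, V₀)) := hlim
  exact (continuous_fst.tendsto (x, V₀)).comp ht

end Vale.Agent.P088.R2.H710
end
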